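import Mathlib

/-!
Combinatorial core for the P075 lower bound: a sign table on base-4 digits whose
triangle products are a function of the XOR of the three indices, and the sums of
that function over dyadic initial segments.
-/

namespace Vale.Agent.Lib.P075

/-- sign attached to a base-4 digit of the XOR-sum -/
def cdig (d : ℕ) : ℤ := if d = 1 then -1 else 1

/-- the 4 x 4 sign table -/
def fdig (d e : ℕ) : ℤ :=
  if d = 0 then 1
  else if d = 1 then (if e < 2 then -1 else 1)
  else if d = 2 then (if e % 2 = 0 then 1 else -1)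
  else (if e = 0 ∨ e = 3 then 1 else -1)

theorem fdig_triple : ∀ a b c : Fin 4,
    fdig a b * fdig b c * fdig c a = cdig ((a : ℕ) ^^^ (b : ℕ) ^^^ (c : ℕ)) := by
  decide

theorem fdig_triple' (a b c : ℕ) (ha : a < 4) (hb : b < 4) (hc : c < 4) :
    fdig a b * fdig b c * fdig c a = cdig (a ^^^ b ^^^ c) :=
  fdig_triple ⟨a, ha⟩ ⟨b, hb⟩ ⟨c, hc⟩

theorem fdig_sq : ∀ a b : Fin 4, fdig a b = 1 ∨ fdig a b = -1 := by
  decide

/-- digit-product function of one index -/
def gfun (t : ℕ) : ℤ := if t = 0 then 1 else cdig (t % 4) * gfun (t / 4)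
termination_by t
decreasing_by omega

/-- digit-product function of two indices -/
def Gfun (a b : ℕ) : ℤ :=
  if a = 0 ∧ b = 0 then 1 else fdig (a % 4) (b % 4) * Gfun (a / 4) (b / 4)
termination_by a + b
decreasing_by omega

theorem gfun_zero : gfun 0 = 1 := by
  rw [gfun]; simp

theorem Gfun_zero : Gfun 0 0 = 1 := by
  rw [Gfun]; simp

theorem gfun_rec (t : ℕ) : gfun t = cdig (t % 4) * gfun (t / 4) := by
  by_cases h : t = 0
  · subst h; simp [gfun_zero, cdig]
  · rw [gfun]; simp [h]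

theorem Gfun_rec (a b : ℕ) : Gfun a b = fdig (a % 4) (b % 4) * Gfun (a / 4) (b / 4) := by
  by_cases h : a = 0 ∧ b = 0
  · obtain ⟨rfl, rfl⟩ := h; simp [Gfun_zero, fdig]
  · rw [Gfun]; simp [h]

theorem Gfun_pm (a b : ℕ) : Gfun a b = 1 ∨ Gfun a b = -1 := by
  induction' h : a + b using Nat.strong_induction_on with s ih generalizing a b
  by_cases h0 : a = 0 ∧ b = 0
  · obtain ⟨rfl, rfl⟩ := h0; left; exact Gfun_zero
  · rw [Gfun_rec]
    have h1 := ih (a / 4 + b / 4) (by omega) (a / 4) (b / 4) rfl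
    have h2 := fdig_sq ⟨a % 4, Nat.mod_lt _ (by norm_num)⟩ ⟨b % 4, Nat.mod_lt _ (by norm_num)⟩
    simp only at h2
    rcases h1 with h1 | h1 <;> rcases h2 with h2 | h2 <;> rw [h1, h2] <;> simp

theorem xor3_mod4 (a b c : ℕ) : (a ^^^ b ^^^ c) % 4 = (a % 4) ^^^ (b % 4) ^^^ (c % 4) := by
  have := @Nat.xor_mod_two_pow (a ^^^ b) c 2
  have h2 := @Nat.xor_mod_two_pow a b 2
  norm_num at this h2
  rw [this, h2]

theorem xor3_div4 (a b c : ℕ) : (a ^^^ b ^^^ c) / 4 = (a / 4) ^^^ (b / 4) ^^^ (c / 4) := by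
  have := @Nat.xor_div_two_pow (a ^^^ b) c 2
  have h2 := @Nat.xor_div_two_pow a b 2
  norm_num at this h2
  rw [this, h2]

/-- the triangle product of the table is the digit-product function of the XOR -/
theorem Gfun_triple (a b c : ℕ) : Gfun a b * Gfun b c * Gfun c a = gfun (a ^^^ b ^^^ c) := by
  induction' h : a + b + c using Nat.strong_induction_on with s ih generalizing a b c
  by_cases h0 : a = 0 ∧ b = 0 ∧ c = 0
  · obtain ⟨rfl, rfl, rfl⟩ := h0; simp [Gfun_zero, gfun_zero]
  · rw [Gfun_rec a b, Gfun_rec b c, Gfun_rec c a, gfun_rec (a ^^^ b ^^^ c), xor3_mod4, xor3_div4]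
    have h1 := ih (a / 4 + b / 4 + c / 4) (by omega) (a / 4) (b / 4) (c / 4) rfl
    have h2 := fdig_triple' (a % 4) (b % 4) (c % 4) (Nat.mod_lt _ (by norm_num))
      (Nat.mod_lt _ (by norm_num)) (Nat.mod_lt _ (by norm_num))
    rw [← h1, ← h2]; ring

theorem gfun_four_mul (t d : ℕ) (hd : d < 4) : gfun (4 * t + d) = cdig d * gfun t := by
  rw [gfun_rec]
  have h1 : (4 * t + d) % 4 = d := by omega
  have h2 : (4 * t + d) / 4 = t := by omega
  rw [h1, h2]

theorem sum_gfun_four_mul (M : ℕ) :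
    ∑ t ∈ Finset.range (4 * M), gfun t = 2 * ∑ t ∈ Finset.range M, gfun t := by
  induction M with
  | zero => simp
  | succ M ih =>
    have : 4 * (M + 1) = 4 * M + 1 + 1 + 1 + 1 := by ring
    rw [this, Finset.sum_range_succ, Finset.sum_range_succ, Finset.sum_range_succ,
      Finset.sum_range_succ, ih, Finset.sum_range_succ]
    have e0 := gfun_four_mul M 0 (by norm_num)
    have e1 := gfun_four_mul M 1 (by norm_num)
    have e2 := gfun_four_mul M 2 (by norm_num)
    have e3 := gfun_four_mul M 3 (by norm_num)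
    simp only [add_zero] at e0
    rw [e0, e1, e2, e3]
    simp [cdig]; ring

/-- sums of the digit-product function over dyadic initial segments -/
def Ssum (j : ℕ) : ℤ := ∑ t ∈ Finset.range (2 ^ j), gfun t

theorem Ssum_add_two (j : ℕ) : Ssum (j + 2) = 2 * Ssum j := by
  unfold Ssum
  have : 2 ^ (j + 2) = 4 * 2 ^ j := by ring
  rw [this, sum_gfun_four_mul]

theorem Ssum_even (i : ℕ) : Ssum (2 * i) = 2 ^ i := by
  induction i with
  | zero => simp [Ssum, gfun_zero]
  | succ i ih =>
    have : 2 * (i + 1) = 2 * i + 2 := by ring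
    rw [this, Ssum_add_two, ih]; ring

theorem Ssum_odd (i : ℕ) : Ssum (2 * i + 1) = 0 := by
  induction i with
  | zero =>
    have h1 : gfun 1 = -1 := by
      rw [gfun_rec]; simp [cdig, gfun_zero]
    simp [Ssum, Finset.sum_range_succ, gfun_zero, h1]
  | succ i ih =>
    have : 2 * (i + 1) + 1 = (2 * i + 1) + 2 := by ring
    rw [this, Ssum_add_two, ih]; ring

end Vale.Agent.Lib.P075
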