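import Mathlib

/-!
The dyadic (Walsh) model of the triangular Hilbert form, as in problem P075:
dyadic intervals I = [2^k n, 2^k (n+1)) with n a natural number, Haar functions,
the single-triple forms L_I, the form summed over finitely many scales, and the
L^3 norm on the closed quadrant.
-/

namespace Vale.Agent.Lib.P075

open MeasureTheory

/-- Haar function of the dyadic interval `[2^k n, 2^k (n+1))`:
`1` on its left half, `-1` on its right half, `0` elsewhere. -/
noncomputable def haar (k : ℤ) (n : ℕ) (x : ℝ) : ℝ :=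
  if (2 : ℝ) ^ k * n ≤ x ∧ x < (2 : ℝ) ^ k * (n + 1 / 2) then 1
  else if (2 : ℝ) ^ k * (n + 1 / 2) ≤ x ∧ x < (2 : ℝ) ^ k * (n + 1) then -1
  else 0

/-- The form `L_I(F0, F1, F2)` of the triple `I = (I_0, I_1, I_2)` of dyadic intervals of
length `2^k` with indices `n0, n1, n2` (the Haar functions vanish off the intervals, so the
integral over the whole space equals the integral over `I_0 × I_1 × I_2`). -/
noncomputable def Lterm (k : ℤ) (n0 n1 n2 : ℕ) (F0 F1 F2 : ℝ → ℝ → ℝ) : ℝ :=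
  (2 : ℝ) ^ (-k) * ∫ x0 : ℝ, ∫ x1 : ℝ, ∫ x2 : ℝ,
    F0 x0 x1 * F1 x1 x2 * F2 x2 x0 * (haar k n0 x0 * haar k n1 x1 * haar k n2 x2)

/-- The dyadic triangular Hilbert form: the sum over the scales `k` in `S`, with
coefficients `ε k`, of the sum of `L_I` over all triples of dyadic intervals of length `2^k`
whose indices have bitwise XOR zero (the third index is the XOR of the first two). -/
noncomputable def dyadicForm (S : Finset ℤ) (ε : ℤ → ℝ) (F0 F1 F2 : ℝ → ℝ → ℝ) : ℝ :=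
  ∑ k ∈ S, ε k * ∑' p : ℕ × ℕ, Lterm k p.1 p.2 (p.1 ^^^ p.2) F0 F1 F2

/-- The `L^3` norm over the quadrant `[0, ∞) × [0, ∞)`. -/
noncomputable def norm3 (F : ℝ → ℝ → ℝ) : ℝ :=
  (∫ x in Set.Ici (0 : ℝ), ∫ y in Set.Ici (0 : ℝ), |F x y| ^ 3) ^ ((1 : ℝ) / 3)

/-- Real, measurable, bounded, and vanishing outside a bounded part of the closed quadrant. -/
def Admissible (F : ℝ → ℝ → ℝ) : Prop :=
  Measurable (Function.uncurry F) ∧ (∃ M : ℝ, ∀ x y, |F x y| ≤ M) ∧
    (∃ R : ℝ, ∀ x y, F x y ≠ 0 → 0 ≤ x ∧ x ≤ R ∧ 0 ≤ y ∧ y ≤ R)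

end Vale.Agent.Lib.P075
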