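import Mathlib

/-!
Integrals of functions of the integer part: a function on the line that depends only
on the floor of its argument, and vanishes unless the floor lies in [0, N), integrates to
the corresponding finite sum.
-/

namespace Vale.Agent.Lib.P075

open MeasureTheory Finset

theorem floor_int1 (ψ : ℤ → ℝ) (N : ℕ) (hψ : ∀ a : ℤ, ¬(0 ≤ a ∧ a < N) → ψ a = 0) :
    ∫ x : ℝ, ψ ⌊x⌋ = ∑ a ∈ range N, ψ (a : ℤ) := by
  have key : (fun x : ℝ => ψ ⌊x⌋) = fun x =>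
      ∑ a ∈ range N, (Set.Ico (a : ℝ) (a + 1)).indicator (fun _ => ψ (a : ℤ)) x := by
    funext x
    by_cases h : 0 ≤ ⌊x⌋ ∧ ⌊x⌋ < N
    · obtain ⟨h0, h1⟩ := h
      have hcast : ((⌊x⌋.toNat : ℕ) : ℤ) = ⌊x⌋ := Int.toNat_of_nonneg h0
      have hmem : ⌊x⌋.toNat ∈ range N := by
        rw [mem_range]; omega
      rw [Finset.sum_eq_single_of_mem ⌊x⌋.toNat hmem]
      · have hx : x ∈ Set.Ico ((⌊x⌋.toNat : ℕ) : ℝ) (((⌊x⌋.toNat : ℕ) : ℝ) + 1) := by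
          have e : ((⌊x⌋.toNat : ℕ) : ℝ) = ((⌊x⌋ : ℤ) : ℝ) := by
            rw [← hcast]; push_cast; rfl
          rw [e]
          exact ⟨Int.floor_le x, Int.lt_floor_add_one x⟩
        rw [Set.indicator_of_mem hx, hcast]
      · intro b _ hb
        apply Set.indicator_of_notMem
        intro hx
        apply hb
        have : ⌊x⌋ = (b : ℤ) := Int.floor_eq_iff.mpr ⟨by exact_mod_cast hx.1, by exact_mod_cast hx.2⟩
        rw [this]; simp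
    · rw [hψ _ h]; symm
      apply Finset.sum_eq_zero
      intro b hb
      apply Set.indicator_of_notMem
      intro hx
      apply h
      have : ⌊x⌋ = (b : ℤ) := Int.floor_eq_iff.mpr ⟨by exact_mod_cast hx.1, by exact_mod_cast hx.2⟩
      rw [this]
      exact ⟨by positivity, by exact_mod_cast mem_range.mp hb⟩
  rw [key, integral_finsetSum]
  · apply Finset.sum_congr rfl
    intro a _
    rw [integral_indicator_const _ measurableSet_Ico]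
    simp
  · intro a _
    exact ((continuous_const.integrableOn_Icc).mono_set Set.Ico_subset_Icc_self).integrable_indicator
      measurableSet_Ico


theorem floor_int2 (Ψ : ℤ → ℤ → ℝ) (N : ℕ)
    (h : ∀ a b : ℤ, ¬((0 ≤ a ∧ a < N) ∧ (0 ≤ b ∧ b < N)) → Ψ a b = 0) :
    ∫ x0 : ℝ, ∫ x1 : ℝ, Ψ ⌊x0⌋ ⌊x1⌋ = ∑ a ∈ range N, ∑ b ∈ range N, Ψ a b := by
  have h1 : ∀ a : ℤ, ∫ x1 : ℝ, Ψ a ⌊x1⌋ = ∑ b ∈ range N, Ψ a b := fun a =>
    floor_int1 (Ψ a) N (fun b hb => h a b (fun hh => hb hh.2))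
  simp_rw [h1]
  exact floor_int1 (fun a => ∑ b ∈ range N, Ψ a b) N
    (fun a ha => Finset.sum_eq_zero (fun b _ => h a b (fun hh => ha hh.1)))

theorem floor_int3 (Ψ : ℤ → ℤ → ℤ → ℝ) (N : ℕ)
    (h : ∀ a b c : ℤ, ¬((0 ≤ a ∧ a < N) ∧ (0 ≤ b ∧ b < N) ∧ (0 ≤ c ∧ c < N)) → Ψ a b c = 0) :
    ∫ x0 : ℝ, ∫ x1 : ℝ, ∫ x2 : ℝ, Ψ ⌊x0⌋ ⌊x1⌋ ⌊x2⌋
      = ∑ a ∈ range N, ∑ b ∈ range N, ∑ c ∈ range N, Ψ a b c := by
  have h1 : ∀ a b : ℤ, ∫ x2 : ℝ, Ψ a b ⌊x2⌋ = ∑ c ∈ range N, Ψ a b c := fun a b =>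
    floor_int1 (Ψ a b) N (fun c hc => h a b c (fun hh => hc hh.2.2))
  simp_rw [h1]
  exact floor_int2 (fun a b => ∑ c ∈ range N, Ψ a b c) N
    (fun a b hab => Finset.sum_eq_zero (fun c _ => h a b c (fun hh => hab ⟨hh.1, hh.2.1⟩)))

end Vale.Agent.Lib.P075
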