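import Mathlib
import Vale.Agent.Lib.P075.Comb

/-!
Finite sums for the P075 lower bound: the scale-k sum of triangle products of the
sign table against the dyadic Haar signs.
-/

namespace Vale.Agent.Lib.P075

open Finset

/-- sign of binary digit j -/
def sgb (j : ℕ) (t : ℕ) : ℤ := if t.testBit j then -1 else 1

theorem sgb_xor3 (j a b c : ℕ) : sgb j a * sgb j b * sgb j c = sgb j (a ^^^ b ^^^ c) := by
  unfold sgb
  rw [Nat.testBit_xor, Nat.testBit_xor]
  cases a.testBit j <;> cases b.testBit j <;> cases c.testBit j <;> simp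

theorem sgb_lt (j t : ℕ) (h : t < 2 ^ j) : sgb j t = 1 := by
  unfold sgb
  rw [Nat.testBit_lt_two_pow h]; simp

theorem sgb_ge (j t : ℕ) (h1 : 2 ^ j ≤ t) (h2 : t < 2 ^ (j + 1)) : sgb j t = -1 := by
  unfold sgb
  have : t.testBit j = true := by
    rw [Nat.testBit_eq_decide_div_mod_eq]
    have h3 : t / 2 ^ j = 1 := by
      apply Nat.div_eq_of_lt_le
      · simpa using h1
      · rw [pow_succ] at h2; linarith
    simp [h3]
  rw [this]; simp

theorem shell_sum (j : ℕ) :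
    ∑ t ∈ range (2 ^ (j + 1)), gfun t * sgb j t = 2 * Ssum j - Ssum (j + 1) := by
  have hle : 2 ^ j ≤ 2 ^ (j + 1) := Nat.pow_le_pow_right (by norm_num) (by omega)
  have e1 : ∑ t ∈ range (2 ^ (j + 1)), gfun t * sgb j t
      = ∑ t ∈ Ico 0 (2 ^ j), gfun t * sgb j t + ∑ t ∈ Ico (2 ^ j) (2 ^ (j + 1)), gfun t * sgb j t := by
    rw [Finset.range_eq_Ico, Finset.sum_Ico_consecutive _ (Nat.zero_le _) hle]
  have e2 : Ssum (j + 1) = ∑ t ∈ Ico 0 (2 ^ j), gfun t + ∑ t ∈ Ico (2 ^ j) (2 ^ (j + 1)), gfun t := by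
    unfold Ssum
    rw [Finset.range_eq_Ico, Finset.sum_Ico_consecutive _ (Nat.zero_le _) hle]
  have e3 : ∑ t ∈ Ico 0 (2 ^ j), gfun t * sgb j t = ∑ t ∈ Ico 0 (2 ^ j), gfun t := by
    apply Finset.sum_congr rfl
    intro t ht
    rw [Finset.mem_Ico] at ht
    rw [sgb_lt j t ht.2]; ring
  have e4 : ∑ t ∈ Ico (2 ^ j) (2 ^ (j + 1)), gfun t * sgb j t
      = - ∑ t ∈ Ico (2 ^ j) (2 ^ (j + 1)), gfun t := by
    rw [← Finset.sum_neg_distrib]
    apply Finset.sum_congr rfl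
    intro t ht
    rw [Finset.mem_Ico] at ht
    rw [sgb_ge j t ht.1 ht.2]; ring
  have e5 : Ssum j = ∑ t ∈ Ico 0 (2 ^ j), gfun t := by
    unfold Ssum; rw [Finset.range_eq_Ico]
  rw [e1, e3, e4, e2, e5]; ring

/-- Haar sign of the dyadic interval of index n at scale j+1, evaluated on the unit cell a -/
def hz (j n a : ℕ) : ℤ := if a / 2 ^ (j + 1) = n then sgb j a else 0

theorem xor3_div_pow (a b c k : ℕ) :
    (a ^^^ b ^^^ c) / 2 ^ k = (a / 2 ^ k) ^^^ (b / 2 ^ k) ^^^ (c / 2 ^ k) := by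
  rw [Nat.xor_div_two_pow, Nat.xor_div_two_pow]

theorem inner_sum (N j a b c : ℕ) (ha : a < N) (hb : b < N) :
    ∑ p ∈ range N ×ˢ range N, hz j p.1 a * hz j p.2 b * hz j (p.1 ^^^ p.2) c
      = if a ^^^ b ^^^ c < 2 ^ (j + 1) then sgb j (a ^^^ b ^^^ c) else 0 := by
  have hpos : 0 < 2 ^ (j + 1) := by positivity
  rw [Finset.sum_eq_single (a / 2 ^ (j + 1), b / 2 ^ (j + 1))]
  · have hcond : (c / 2 ^ (j + 1) = a / 2 ^ (j + 1) ^^^ b / 2 ^ (j + 1)) ↔
        a ^^^ b ^^^ c < 2 ^ (j + 1) := by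
      rw [← Nat.div_eq_zero_iff_lt hpos, xor3_div_pow, Nat.xor_eq_zero_iff]
      exact eq_comm
    simp only [hz, if_true]
    by_cases h : a ^^^ b ^^^ c < 2 ^ (j + 1)
    · rw [if_pos (hcond.mpr h), if_pos h, sgb_xor3]
    · rw [if_neg (fun h' => h (hcond.mp h')), if_neg h]; ring
  · intro p _ hp
    have : p.1 ≠ a / 2 ^ (j + 1) ∨ p.2 ≠ b / 2 ^ (j + 1) := by
      by_contra hcon
      rw [not_or, not_not, not_not] at hcon
      exact hp (Prod.ext hcon.1 hcon.2)
    rcases this with h | h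
    · simp [hz, Ne.symm h]
    · simp [hz, Ne.symm h]
  · intro hnot
    exfalso
    apply hnot
    rw [Finset.mem_product, Finset.mem_range, Finset.mem_range]
    exact ⟨lt_of_le_of_lt (Nat.div_le_self _ _) ha, lt_of_le_of_lt (Nat.div_le_self _ _) hb⟩

theorem xor_shift_sum (n a b : ℕ) (w : ℕ → ℤ) (ha : a < 2 ^ n) (hb : b < 2 ^ n) :
    ∑ c ∈ range (2 ^ n), w (a ^^^ b ^^^ c) = ∑ t ∈ range (2 ^ n), w t := by
  apply Finset.sum_nbij' (fun c => a ^^^ b ^^^ c) (fun t => a ^^^ b ^^^ t)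
  · intro c hc
    rw [Finset.mem_range] at hc ⊢
    exact Nat.xor_lt_two_pow (Nat.xor_lt_two_pow ha hb) hc
  · intro c hc
    rw [Finset.mem_range] at hc ⊢
    exact Nat.xor_lt_two_pow (Nat.xor_lt_two_pow ha hb) hc
  · intro c _
    exact Nat.xor_xor_cancel_left (a ^^^ b) c
  · intro c _
    exact Nat.xor_xor_cancel_left (a ^^^ b) c
  · intro c _
    rfl

/-- the scale-(j+1) sum of the triangle products against the Haar signs -/
theorem triple_sum (n j : ℕ) (hj : j + 1 ≤ 2 * n) :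
    ∑ p ∈ range (2 ^ (2 * n)) ×ˢ range (2 ^ (2 * n)),
      ∑ a ∈ range (2 ^ (2 * n)), ∑ b ∈ range (2 ^ (2 * n)), ∑ c ∈ range (2 ^ (2 * n)),
        Gfun a b * Gfun b c * Gfun c a * (hz j p.1 a * hz j p.2 b * hz j (p.1 ^^^ p.2) c)
      = ((2 : ℤ) ^ (2 * n)) ^ 2 * (2 * Ssum j - Ssum (j + 1)) := by
  set N := 2 ^ (2 * n) with hN
  have hPN : 2 ^ (j + 1) ≤ N := Nat.pow_le_pow_right (by norm_num) hj
  -- move the sum over p inside
  have step1 : ∑ p ∈ range N ×ˢ range N,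
      ∑ a ∈ range N, ∑ b ∈ range N, ∑ c ∈ range N,
        Gfun a b * Gfun b c * Gfun c a * (hz j p.1 a * hz j p.2 b * hz j (p.1 ^^^ p.2) c)
      = ∑ a ∈ range N, ∑ b ∈ range N, ∑ c ∈ range N,
        Gfun a b * Gfun b c * Gfun c a *
          ∑ p ∈ range N ×ˢ range N, (hz j p.1 a * hz j p.2 b * hz j (p.1 ^^^ p.2) c) := by
    rw [Finset.sum_comm]
    apply Finset.sum_congr rfl; intro a _
    rw [Finset.sum_comm]
    apply Finset.sum_congr rfl; intro b _
    rw [Finset.sum_comm]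
    apply Finset.sum_congr rfl; intro c _
    rw [Finset.mul_sum]
  rw [step1]
  -- evaluate
  have step2 : ∀ a ∈ range N, ∀ b ∈ range N,
      ∑ c ∈ range N, Gfun a b * Gfun b c * Gfun c a *
          ∑ p ∈ range N ×ˢ range N, (hz j p.1 a * hz j p.2 b * hz j (p.1 ^^^ p.2) c)
      = 2 * Ssum j - Ssum (j + 1) := by
    intro a ha b hb
    rw [Finset.mem_range] at ha hb
    have e1 : ∀ c ∈ range N, Gfun a b * Gfun b c * Gfun c a *
          ∑ p ∈ range N ×ˢ range N, (hz j p.1 a * hz j p.2 b * hz j (p.1 ^^^ p.2) c)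
        = (fun t => if t < 2 ^ (j + 1) then gfun t * sgb j t else 0) (a ^^^ b ^^^ c) := by
      intro c _
      rw [inner_sum N j a b c ha hb, Gfun_triple]
      simp only
      split_ifs <;> ring
    rw [Finset.sum_congr rfl e1, hN]
    rw [xor_shift_sum (2 * n) a b (fun t => if t < 2 ^ (j + 1) then gfun t * sgb j t else 0)
      (hN ▸ ha) (hN ▸ hb)]
    rw [← shell_sum]
    have hsub : range (2 ^ (j + 1)) ⊆ range (2 ^ (2 * n)) := by
      intro t ht
      rw [Finset.mem_range] at ht ⊢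
      exact lt_of_lt_of_le ht hPN
    rw [← Finset.sum_subset hsub]
    · apply Finset.sum_congr rfl
      intro t ht
      rw [Finset.mem_range] at ht
      simp [ht]
    · intro t _ ht
      rw [Finset.mem_range] at ht
      simp [ht]
  rw [Finset.sum_congr rfl (fun a ha => Finset.sum_congr rfl (fun b hb => step2 a ha b hb))]
  simp only [Finset.sum_const, Finset.card_range, nsmul_eq_mul]
  rw [hN]; push_cast; ring

end Vale.Agent.Lib.P075
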