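import Mathlib
import Vale.Agent.Lib.P075.Defs
import Vale.Agent.Lib.P075.Sums
import Vale.Agent.Lib.P075.Floor

/-!
Assembly of the P075 lower bound: an explicit step function (a sign table on unit cells)
for which the dyadic form over the scales 1, ..., 2n equals 3 (1 - 2^(-n)) times the product
of the L^3 norms.
-/

namespace Vale.Agent.Lib.P075

open MeasureTheory Finset

theorem nat_div_eq_iff' (a P n : ℕ) (hP : 0 < P) :
    a / P = n ↔ (P * n ≤ a ∧ a < P * (n + 1)) := by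
  constructor
  · intro h
    subst h
    constructor
    · exact Nat.mul_div_le a P
    · exact Nat.lt_mul_div_succ a hP
  · rintro ⟨h1, h2⟩
    apply Nat.div_eq_of_lt_le
    · rw [Nat.mul_comm]; exact h1
    · rw [Nat.mul_comm]; exact h2

theorem hz_eq (j n a : ℕ) :
    hz j n a = if 2 ^ (j + 1) * n ≤ a ∧ a < 2 ^ j * (2 * n + 1) then 1
      else if 2 ^ j * (2 * n + 1) ≤ a ∧ a < 2 ^ (j + 1) * (n + 1) then -1 else 0 := by
  have hP : 0 < 2 ^ j := by positivity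
  have h2P : 0 < 2 ^ (j + 1) := by positivity
  have e1 : 2 ^ (j + 1) * n = 2 * (2 ^ j * n) := by ring
  have e2 : 2 ^ j * (2 * n + 1) = 2 * (2 ^ j * n) + 2 ^ j := by ring
  have e3 : 2 ^ (j + 1) * (n + 1) = 2 * (2 ^ j * n) + 2 * 2 ^ j := by ring
  have hdivn : a / 2 ^ (j + 1) = n ↔ (2 ^ (j + 1) * n ≤ a ∧ a < 2 ^ (j + 1) * (n + 1)) :=
    nat_div_eq_iff' a _ n h2P
  unfold hz sgb
  rw [Nat.testBit_eq_decide_div_mod_eq]
  by_cases c1 : 2 ^ (j + 1) * n ≤ a ∧ a < 2 ^ j * (2 * n + 1)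
  · rw [if_pos c1]
    have hdiv : a / 2 ^ j = 2 * n := by
      rw [nat_div_eq_iff' a _ _ hP]
      constructor
      · have := c1.1; rw [e1] at this; linarith [this]
      · have := c1.2; rw [e2] at this
        have e4 : 2 ^ j * (2 * n + 1) = 2 * (2 ^ j * n) + 2 ^ j := by ring
        rw [e4]; exact this
    have hc : 2 ^ (j + 1) * n ≤ a ∧ a < 2 ^ (j + 1) * (n + 1) := by
      refine ⟨c1.1, ?_⟩
      have := c1.2; rw [e2] at this; rw [e3]; omega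
    rw [if_pos (hdivn.mpr hc), hdiv]
    simp
  · rw [if_neg c1]
    by_cases c2 : 2 ^ j * (2 * n + 1) ≤ a ∧ a < 2 ^ (j + 1) * (n + 1)
    · rw [if_pos c2]
      have hdiv : a / 2 ^ j = 2 * n + 1 := by
        rw [nat_div_eq_iff' a _ _ hP]
        constructor
        · exact c2.1
        · have := c2.2; rw [e3] at this
          have e4 : 2 ^ j * (2 * n + 1 + 1) = 2 * (2 ^ j * n) + 2 * 2 ^ j := by ring
          rw [e4]; exact this
      have hc : 2 ^ (j + 1) * n ≤ a ∧ a < 2 ^ (j + 1) * (n + 1) := by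
        refine ⟨?_, c2.2⟩
        have := c2.1; rw [e2] at this; rw [e1]; omega
      rw [if_pos (hdivn.mpr hc), hdiv]
      simp
    · rw [if_neg c2]
      have hc : ¬ (2 ^ (j + 1) * n ≤ a ∧ a < 2 ^ (j + 1) * (n + 1)) := by
        intro hc
        rw [e1, e3] at hc
        rw [e1, e2] at c1
        rw [e2, e3] at c2
        omega
      rw [if_neg (fun h => hc (hdivn.mp h))]

/-- integer-level Haar sign, zero for negative cells -/
def Hz (j n : ℕ) (a : ℤ) : ℤ := if 0 ≤ a then hz j n a.toNat else 0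

theorem Hz_natCast (j n a : ℕ) : Hz j n (a : ℤ) = hz j n a := by
  simp [Hz]

theorem haar_eq (j n : ℕ) (x : ℝ) : haar ((j : ℤ) + 1) n x = ((Hz j n ⌊x⌋ : ℤ) : ℝ) := by
  have hk : ((j : ℤ) + 1) = ((j + 1 : ℕ) : ℤ) := by push_cast; ring
  have hA : (2 : ℝ) ^ ((j : ℤ) + 1) * (n : ℝ) = ((2 ^ (j + 1) * n : ℕ) : ℤ) := by
    rw [hk, zpow_natCast]; push_cast; ring
  have hB : (2 : ℝ) ^ ((j : ℤ) + 1) * ((n : ℝ) + 1 / 2) = ((2 ^ j * (2 * n + 1) : ℕ) : ℤ) := by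
    rw [hk, zpow_natCast]; push_cast; ring
  have hC : (2 : ℝ) ^ ((j : ℤ) + 1) * ((n : ℝ) + 1) = ((2 ^ (j + 1) * (n + 1) : ℕ) : ℤ) := by
    rw [hk, zpow_natCast]; push_cast; ring
  unfold haar
  rw [hA, hB, hC]
  simp only [← Int.le_floor, ← Int.floor_lt]
  unfold Hz
  by_cases hneg : 0 ≤ ⌊x⌋
  · rw [if_pos hneg, hz_eq]
    obtain ⟨a, ha⟩ := Int.eq_ofNat_of_zero_le hneg
    rw [ha]
    simp only [Int.toNat_natCast, Nat.cast_le, Nat.cast_lt]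
    split_ifs <;> simp
  · rw [if_neg hneg]
    have h1 : ¬ (((2 ^ (j + 1) * n : ℕ) : ℤ) ≤ ⌊x⌋ ∧ ⌊x⌋ < ((2 ^ j * (2 * n + 1) : ℕ) : ℤ)) := by
      intro h; apply hneg; exact le_trans (Int.natCast_nonneg _) h.1
    have h2 : ¬ (((2 ^ j * (2 * n + 1) : ℕ) : ℤ) ≤ ⌊x⌋ ∧ ⌊x⌋ < ((2 ^ (j + 1) * (n + 1) : ℕ) : ℤ)) := by
      intro h; apply hneg; exact le_trans (Int.natCast_nonneg _) h.1
    rw [if_neg h1, if_neg h2]; simp

/-- the sign table extended by zero to all integer cells -/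
def Gz (N : ℕ) (a b : ℤ) : ℤ :=
  if (0 ≤ a ∧ a < N) ∧ (0 ≤ b ∧ b < N) then Gfun a.toNat b.toNat else 0

theorem Gz_natCast (N a b : ℕ) (ha : a < N) (hb : b < N) : Gz N (a : ℤ) (b : ℤ) = Gfun a b := by
  simp [Gz, ha, hb]

theorem Gz_eq_zero_left (N : ℕ) (a b : ℤ) (h : ¬ (0 ≤ a ∧ a < N)) : Gz N a b = 0 := by
  unfold Gz
  rw [if_neg]
  intro hh; exact h hh.1

theorem Gz_eq_zero_right (N : ℕ) (a b : ℤ) (h : ¬ (0 ≤ b ∧ b < N)) : Gz N a b = 0 := by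
  unfold Gz
  rw [if_neg]
  intro hh; exact h hh.2

theorem Gz_abs_le (N : ℕ) (a b : ℤ) : |((Gz N a b : ℤ) : ℝ)| ≤ 1 := by
  unfold Gz
  split_ifs
  · rcases Gfun_pm a.toNat b.toNat with h | h <;> rw [h] <;> simp
  · simp

/-- the example: a step function, constant on unit cells, equal to the sign table on
`[0, N) × [0, N)` and zero elsewhere -/
noncomputable def Fex (N : ℕ) (x y : ℝ) : ℝ := ((Gz N ⌊x⌋ ⌊y⌋ : ℤ) : ℝ)

theorem Lterm_ex (N j n0 n1 n2 : ℕ) :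
    Lterm ((j : ℤ) + 1) n0 n1 n2 (Fex N) (Fex N) (Fex N)
      = (2 : ℝ) ^ (-((j : ℤ) + 1)) *
        ((∑ a ∈ range N, ∑ b ∈ range N, ∑ c ∈ range N,
          Gfun a b * Gfun b c * Gfun c a * (hz j n0 a * hz j n1 b * hz j n2 c) : ℤ) : ℝ) := by
  unfold Lterm Fex
  simp_rw [haar_eq]
  congr 1
  have hΨ : ∀ a b c : ℤ, ¬((0 ≤ a ∧ a < N) ∧ (0 ≤ b ∧ b < N) ∧ (0 ≤ c ∧ c < N)) →
      (fun a b c : ℤ => ((Gz N a b : ℤ) : ℝ) * ((Gz N b c : ℤ) : ℝ) * ((Gz N c a : ℤ) : ℝ) *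
        (((Hz j n0 a : ℤ) : ℝ) * ((Hz j n1 b : ℤ) : ℝ) * ((Hz j n2 c : ℤ) : ℝ))) a b c = 0 := by
    intro a b c h
    simp only
    by_cases ha : 0 ≤ a ∧ a < N
    · by_cases hb : 0 ≤ b ∧ b < N
      · have hc : ¬ (0 ≤ c ∧ c < N) := fun hc => h ⟨ha, hb, hc⟩
        rw [Gz_eq_zero_right N b c hc]; simp
      · rw [Gz_eq_zero_right N a b hb]; simp
    · rw [Gz_eq_zero_left N a b ha]; simp
  rw [floor_int3 _ N hΨ]
  push_cast
  apply Finset.sum_congr rfl; intro a ha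
  apply Finset.sum_congr rfl; intro b hb
  apply Finset.sum_congr rfl; intro c hc
  rw [Finset.mem_range] at ha hb hc
  rw [Gz_natCast N a b ha hb, Gz_natCast N b c hb hc, Gz_natCast N c a hc ha,
    Hz_natCast, Hz_natCast, Hz_natCast]

theorem hz_eq_zero_of_le (N j n a : ℕ) (ha : a < N) (hn : N ≤ n) : hz j n a = 0 := by
  unfold hz
  rw [if_neg]
  intro h
  have : a / 2 ^ (j + 1) ≤ a := Nat.div_le_self _ _
  omega

theorem tsum_Lterm_ex (n j : ℕ) (hj : j + 1 ≤ 2 * n) :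
    ∑' p : ℕ × ℕ, Lterm ((j : ℤ) + 1) p.1 p.2 (p.1 ^^^ p.2)
        (Fex (2 ^ (2 * n))) (Fex (2 ^ (2 * n))) (Fex (2 ^ (2 * n)))
      = (2 : ℝ) ^ (-((j : ℤ) + 1)) *
        (((2 : ℝ) ^ (2 * n)) ^ 2 * ((2 * Ssum j - Ssum (j + 1) : ℤ) : ℝ)) := by
  set N := 2 ^ (2 * n) with hN
  rw [tsum_eq_sum (s := range N ×ˢ range N)]
  · simp_rw [Lterm_ex]
    rw [← Finset.mul_sum, ← Int.cast_sum, hN, triple_sum n j hj]
    push_cast
    ring
  · intro p hp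
    rw [Lterm_ex]
    have hp' : N ≤ p.1 ∨ N ≤ p.2 := by
      by_contra hcon
      rw [not_or, not_le, not_le] at hcon
      apply hp
      rw [Finset.mem_product, Finset.mem_range, Finset.mem_range]
      exact hcon
    have : (∑ a ∈ range N, ∑ b ∈ range N, ∑ c ∈ range N,
          Gfun a b * Gfun b c * Gfun c a * (hz j p.1 a * hz j p.2 b * hz j (p.1 ^^^ p.2) c)) = 0 := by
      apply Finset.sum_eq_zero; intro a ha
      apply Finset.sum_eq_zero; intro b hb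
      apply Finset.sum_eq_zero; intro c _
      rw [Finset.mem_range] at ha hb
      rcases hp' with h | h
      · rw [hz_eq_zero_of_le N j p.1 a ha h]; ring
      · rw [hz_eq_zero_of_le N j p.2 b hb h]; ring
    rw [this]; simp

theorem Fex_eq_zero_left (N : ℕ) (x y : ℝ) (hx : x < 0) : Fex N x y = 0 := by
  unfold Fex
  rw [Gz_eq_zero_left]
  · simp
  · intro h
    have : (0 : ℝ) ≤ x := Int.floor_nonneg.mp h.1
    linarith

theorem Fex_eq_zero_right (N : ℕ) (x y : ℝ) (hy : y < 0) : Fex N x y = 0 := by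
  unfold Fex
  rw [Gz_eq_zero_right]
  · simp
  · intro h
    have : (0 : ℝ) ≤ y := Int.floor_nonneg.mp h.1
    linarith

theorem norm3_Fex (N : ℕ) : norm3 (Fex N) = (((N : ℝ)) ^ 2) ^ ((1 : ℝ) / 3) := by
  unfold norm3
  congr 1
  have h1 : ∀ x : ℝ, ∫ y in Set.Ici (0 : ℝ), |Fex N x y| ^ 3 = ∫ y : ℝ, |Fex N x y| ^ 3 := by
    intro x
    apply setIntegral_eq_integral_of_forall_compl_eq_zero
    intro y hy
    rw [Set.mem_Ici, not_le] at hy
    rw [Fex_eq_zero_right N x y hy]; simp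
  simp_rw [h1]
  rw [setIntegral_eq_integral_of_forall_compl_eq_zero]
  · unfold Fex
    have hΨ : ∀ a b : ℤ, ¬((0 ≤ a ∧ a < N) ∧ (0 ≤ b ∧ b < N)) →
        (fun a b : ℤ => |((Gz N a b : ℤ) : ℝ)| ^ 3) a b = 0 := by
      intro a b h
      simp only
      by_cases ha : 0 ≤ a ∧ a < N
      · have hb : ¬ (0 ≤ b ∧ b < N) := fun hb => h ⟨ha, hb⟩
        rw [Gz_eq_zero_right N a b hb]; simp
      · rw [Gz_eq_zero_left N a b ha]; simp
    rw [floor_int2 _ N hΨ]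
    have h2 : ∀ a ∈ range N, ∀ b ∈ range N, |((Gz N (a : ℤ) (b : ℤ) : ℤ) : ℝ)| ^ 3 = 1 := by
      intro a ha b hb
      rw [Finset.mem_range] at ha hb
      rw [Gz_natCast N a b ha hb]
      rcases Gfun_pm a b with h | h <;> rw [h] <;> simp
    rw [Finset.sum_congr rfl (fun a ha => Finset.sum_congr rfl (fun b hb => h2 a ha b hb))]
    simp only [Finset.sum_const, Finset.card_range, nsmul_eq_mul]
    ring
  · intro x hx
    rw [Set.mem_Ici, not_le] at hx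
    have : ∀ y : ℝ, |Fex N x y| ^ 3 = 0 := by
      intro y; rw [Fex_eq_zero_left N x y hx]; simp
    simp_rw [this]
    simp

theorem norm3_prod_Fex (N : ℕ) :
    norm3 (Fex N) * norm3 (Fex N) * norm3 (Fex N) = ((N : ℝ)) ^ 2 := by
  rw [norm3_Fex]
  have hpos : (0 : ℝ) ≤ ((N : ℝ)) ^ 2 := by positivity
  have : ((((N : ℝ)) ^ 2) ^ ((1 : ℝ) / 3)) ^ (3 : ℕ) = ((N : ℝ)) ^ 2 := by
    rw [← Real.rpow_natCast, ← Real.rpow_mul hpos]
    norm_num
  calc (((N : ℝ)) ^ 2) ^ ((1 : ℝ) / 3) * (((N : ℝ)) ^ 2) ^ ((1 : ℝ) / 3) * (((N : ℝ)) ^ 2) ^ ((1 : ℝ) / 3)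
      = ((((N : ℝ)) ^ 2) ^ ((1 : ℝ) / 3)) ^ (3 : ℕ) := by ring
    _ = ((N : ℝ)) ^ 2 := this

theorem admissible_Fex (N : ℕ) : Admissible (Fex N) := by
  refine ⟨?_, ⟨1, fun x y => Gz_abs_le N _ _⟩, ⟨N, ?_⟩⟩
  · have h1 : Measurable (fun q : ℤ × ℤ => ((Gz N q.1 q.2 : ℤ) : ℝ)) := Measurable.of_discrete
    have h2 : Measurable (fun p : ℝ × ℝ => ((⌊p.1⌋ : ℤ), (⌊p.2⌋ : ℤ))) :=
      (Int.measurable_floor.comp measurable_fst).prodMk (Int.measurable_floor.comp measurable_snd)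
    exact h1.comp h2
  · intro x y hxy
    unfold Fex at hxy
    have hG : Gz N ⌊x⌋ ⌊y⌋ ≠ 0 := by
      intro h; apply hxy; rw [h]; simp
    have hx : 0 ≤ ⌊x⌋ ∧ ⌊x⌋ < N := by
      by_contra h; exact hG (Gz_eq_zero_left N _ _ h)
    have hy : 0 ≤ ⌊y⌋ ∧ ⌊y⌋ < N := by
      by_contra h; exact hG (Gz_eq_zero_right N _ _ h)
    have hx2 : ((⌊x⌋ : ℤ) : ℝ) + 1 ≤ (N : ℝ) := by
      have : ⌊x⌋ + 1 ≤ (N : ℤ) := by omega
      exact_mod_cast this
    have hy2 : ((⌊y⌋ : ℤ) : ℝ) + 1 ≤ (N : ℝ) := by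
      have : ⌊y⌋ + 1 ≤ (N : ℤ) := by omega
      exact_mod_cast this
    have hx3 := Int.lt_floor_add_one x
    have hy3 := Int.lt_floor_add_one y
    refine ⟨Int.floor_nonneg.mp hx.1, by linarith, Int.floor_nonneg.mp hy.1, by linarith⟩

/-- the alternating coefficients: `1` on odd scales, `-1` on even scales -/
noncomputable def epsex (k : ℤ) : ℝ := if k % 2 = 0 then -1 else 1

theorem epsex_abs (k : ℤ) : |epsex k| ≤ 1 := by
  unfold epsex
  split_ifs <;> simp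

theorem zpow_neg_succ (j : ℕ) : (2 : ℝ) ^ (-((j : ℤ) + 1)) = ((1 : ℝ) / 2) ^ (j + 1) := by
  have hk : ((j : ℤ) + 1) = ((j + 1 : ℕ) : ℤ) := by push_cast; ring
  rw [hk, zpow_neg, zpow_natCast, one_div, inv_pow]

theorem scale_sum (n : ℕ) :
    ∑ j ∈ range (2 * n), epsex ((j : ℤ) + 1) *
        ((2 : ℝ) ^ (-((j : ℤ) + 1)) * ((2 * Ssum j - Ssum (j + 1) : ℤ) : ℝ))
      = 3 * (1 - ((1 : ℝ) / 2) ^ n) := by
  induction n with
  | zero => simp
  | succ n ih =>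
    have e : 2 * (n + 1) = 2 * n + 1 + 1 := by ring
    rw [e, Finset.sum_range_succ, Finset.sum_range_succ, ih]
    have he1 : epsex (((2 * n : ℕ) : ℤ) + 1) = 1 := by
      unfold epsex
      rw [if_neg]
      push_cast; omega
    have he2 : epsex (((2 * n + 1 : ℕ) : ℤ) + 1) = -1 := by
      unfold epsex
      rw [if_pos]
      push_cast; omega
    have hS1 : Ssum (2 * n + 1 + 1) = 2 ^ (n + 1) := by
      have : 2 * n + 1 + 1 = 2 * (n + 1) := by ring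
      rw [this, Ssum_even]
    rw [he1, he2, zpow_neg_succ, zpow_neg_succ, Ssum_even, Ssum_odd, hS1]
    have h : ((1 : ℝ) / 2) ^ n * 2 ^ n = 1 := by
      rw [← mul_pow]; norm_num
    have e1 : ((1 : ℝ) / 2) ^ (2 * n + 1) = ((1 : ℝ) / 2) ^ n * ((1 : ℝ) / 2) ^ n * (1 / 2) := by
      rw [show 2 * n + 1 = n + n + 1 by ring, pow_succ, pow_add]
    have e2 : ((1 : ℝ) / 2) ^ (2 * n + 1 + 1)
        = ((1 : ℝ) / 2) ^ n * ((1 : ℝ) / 2) ^ n * (1 / 2) * (1 / 2) := by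
      rw [pow_succ, e1]
    rw [e1, e2]
    push_cast
    have e3 : ((1 : ℝ) / 2) ^ (n + 1) = ((1 : ℝ) / 2) ^ n * (1 / 2) := by rw [pow_succ]
    have e4 : (2 : ℝ) ^ (n + 1) = 2 ^ n * 2 := by rw [pow_succ]
    rw [e3, e4]
    linear_combination ((3 / 2 : ℝ) * ((1 : ℝ) / 2) ^ n) * h

theorem Icc_eq_image (n : ℕ) :
    Finset.Icc (1 : ℤ) (2 * (n : ℤ)) = (range (2 * n)).image (fun j : ℕ => (j : ℤ) + 1) := by
  ext k
  rw [Finset.mem_Icc, Finset.mem_image]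
  constructor
  · rintro ⟨h1, h2⟩
    refine ⟨(k - 1).toNat, ?_, ?_⟩
    · rw [Finset.mem_range]; omega
    · omega
  · rintro ⟨j, hj, rfl⟩
    rw [Finset.mem_range] at hj
    constructor <;> omega

theorem form_ex (n : ℕ) :
    dyadicForm (Finset.Icc (1 : ℤ) (2 * (n : ℤ))) epsex
        (Fex (2 ^ (2 * n))) (Fex (2 ^ (2 * n))) (Fex (2 ^ (2 * n)))
      = 3 * (1 - ((1 : ℝ) / 2) ^ n) * (((2 ^ (2 * n) : ℕ) : ℝ)) ^ 2 := by
  unfold dyadicForm
  rw [Icc_eq_image, Finset.sum_image]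
  · have h1 : ∀ j ∈ range (2 * n),
        epsex ((j : ℤ) + 1) * ∑' p : ℕ × ℕ, Lterm ((j : ℤ) + 1) p.1 p.2 (p.1 ^^^ p.2)
          (Fex (2 ^ (2 * n))) (Fex (2 ^ (2 * n))) (Fex (2 ^ (2 * n)))
        = (((2 : ℝ) ^ (2 * n)) ^ 2) * (epsex ((j : ℤ) + 1) *
          ((2 : ℝ) ^ (-((j : ℤ) + 1)) * ((2 * Ssum j - Ssum (j + 1) : ℤ) : ℝ))) := by
      intro j hj
      rw [Finset.mem_range] at hj
      rw [tsum_Lterm_ex n j (by omega)]
      ring
    rw [Finset.sum_congr rfl h1, ← Finset.mul_sum, scale_sum]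
    push_cast
    ring
  · intro a _ b _ hab
    simpa using hab

/-- any constant valid for the scales 1, ..., 2n is at least 3 (1 - 2^(-n)) -/
theorem scales_bound (n : ℕ) (C : ℝ)
    (h : ∀ (ε : ℤ → ℝ) (F0 F1 F2 : ℝ → ℝ → ℝ), (∀ k, |ε k| ≤ 1) →
      Admissible F0 → Admissible F1 → Admissible F2 →
      |dyadicForm (Finset.Icc (1 : ℤ) (2 * (n : ℤ))) ε F0 F1 F2|
        ≤ C * (norm3 F0 * norm3 F1 * norm3 F2)) :
    3 * (1 - ((1 : ℝ) / 2) ^ n) ≤ C := by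
  have hN := h epsex (Fex (2 ^ (2 * n))) (Fex (2 ^ (2 * n))) (Fex (2 ^ (2 * n))) epsex_abs
    (admissible_Fex _) (admissible_Fex _) (admissible_Fex _)
  rw [form_ex, norm3_prod_Fex] at hN
  have hpos : (0 : ℝ) < (((2 ^ (2 * n) : ℕ) : ℝ)) ^ 2 := by positivity
  have h2 := le_trans (le_abs_self _) hN
  exact le_of_mul_le_mul_right h2 hpos

/-- any constant valid for all finite sets of scales is at least 3 -/
theorem const_ge_three (C : ℝ)
    (h : ∀ (S : Finset ℤ) (ε : ℤ → ℝ) (F0 F1 F2 : ℝ → ℝ → ℝ), (∀ k, |ε k| ≤ 1) →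
      Admissible F0 → Admissible F1 → Admissible F2 →
      |dyadicForm S ε F0 F1 F2| ≤ C * (norm3 F0 * norm3 F1 * norm3 F2)) :
    3 ≤ C := by
  by_contra hC
  rw [not_le] at hC
  have hε : (0 : ℝ) < (3 - C) / 3 := by linarith
  obtain ⟨n, hn⟩ := exists_pow_lt_of_lt_one hε (by norm_num : ((1 : ℝ) / 2) < 1)
  have := scales_bound n C (fun ε F0 F1 F2 => h _ ε F0 F1 F2)
  linarith

end Vale.Agent.Lib.P075
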