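import Mathlib

/-!
The `L^p` norm on the closed quadrant for a real exponent `p`, used to state the P075 lower
bound on the whole Hoelder line.
-/

namespace Vale.Agent.Lib.P075

open MeasureTheory

/-- The `L^p` norm over the quadrant `[0, ∞) × [0, ∞)`, for a real exponent `p`
(real powers; iterated Lebesgue integrals). -/
noncomputable def normP (p : ℝ) (F : ℝ → ℝ → ℝ) : ℝ :=
  (∫ x in Set.Ici (0 : ℝ), ∫ y in Set.Ici (0 : ℝ), |F x y| ^ p) ^ ((1 : ℝ) / p)

end Vale.Agent.Lib.P075
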