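import Mathlib
import Vale.Agent.Lib.P075.Defs
import Vale.Agent.Lib.P075.Main
import Vale.Agent.Lib.P075.NormP

/-!
P075, dyadic triangular Hilbert form: the lower bound of `Main.lean` on the whole Hoelder line.
The example functions take the values `1`, `-1` on a square and `0` elsewhere, so all their
`L^p` norms are powers of the area of the square, and the product of three such norms with
`1/p0 + 1/p1 + 1/p2 = 1` is the area itself.
-/

namespace Vale.Agent.Lib.P075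

open MeasureTheory Finset

theorem Gz_abs_rpow (N : ℕ) (a b : ℤ) (p : ℝ) (hp : 0 < p) :
    |((Gz N a b : ℤ) : ℝ)| ^ p = |((Gz N a b : ℤ) : ℝ)| ^ 3 := by
  unfold Gz
  split_ifs
  · rcases Gfun_pm a.toNat b.toNat with h | h <;> rw [h] <;> simp
  · simp [Real.zero_rpow hp.ne']

theorem integral_Fex_cube (N : ℕ) :
    ∫ x in Set.Ici (0 : ℝ), ∫ y in Set.Ici (0 : ℝ), |Fex N x y| ^ 3 = ((N : ℝ)) ^ 2 := by
  have h1 : ∀ x : ℝ, ∫ y in Set.Ici (0 : ℝ), |Fex N x y| ^ 3 = ∫ y : ℝ, |Fex N x y| ^ 3 := by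
    intro x
    apply setIntegral_eq_integral_of_forall_compl_eq_zero
    intro y hy
    rw [Set.mem_Ici, not_le] at hy
    rw [Fex_eq_zero_right N x y hy]; simp
  simp_rw [h1]
  rw [setIntegral_eq_integral_of_forall_compl_eq_zero]
  · unfold Fex
    have hΨ : ∀ a b : ℤ, ¬((0 ≤ a ∧ a < N) ∧ (0 ≤ b ∧ b < N)) →
        (fun a b : ℤ => |((Gz N a b : ℤ) : ℝ)| ^ 3) a b = 0 := by
      intro a b h
      simp only
      by_cases ha : 0 ≤ a ∧ a < N
      · have hb : ¬ (0 ≤ b ∧ b < N) := fun hb => h ⟨ha, hb⟩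
        rw [Gz_eq_zero_right N a b hb]; simp
      · rw [Gz_eq_zero_left N a b ha]; simp
    rw [floor_int2 _ N hΨ]
    have h2 : ∀ a ∈ range N, ∀ b ∈ range N, |((Gz N (a : ℤ) (b : ℤ) : ℤ) : ℝ)| ^ 3 = 1 := by
      intro a ha b hb
      rw [Finset.mem_range] at ha hb
      rw [Gz_natCast N a b ha hb]
      rcases Gfun_pm a b with h | h <;> rw [h] <;> simp
    rw [Finset.sum_congr rfl (fun a ha => Finset.sum_congr rfl (fun b hb => h2 a ha b hb))]
    simp only [Finset.sum_const, Finset.card_range, nsmul_eq_mul]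
    ring
  · intro x hx
    rw [Set.mem_Ici, not_le] at hx
    have : ∀ y : ℝ, |Fex N x y| ^ 3 = 0 := by
      intro y; rw [Fex_eq_zero_left N x y hx]; simp
    simp_rw [this]
    simp

theorem normP_Fex (N : ℕ) (p : ℝ) (hp : 0 < p) :
    normP p (Fex N) = (((N : ℝ)) ^ 2) ^ ((1 : ℝ) / p) := by
  unfold normP
  have e : ∀ x y : ℝ, |Fex N x y| ^ p = |Fex N x y| ^ 3 := fun x y => Gz_abs_rpow N _ _ p hp
  simp_rw [e]
  rw [integral_Fex_cube]

theorem normP_prod_Fex (N : ℕ) (hN : 0 < N) (p0 p1 p2 : ℝ) (h0 : 0 < p0) (h1 : 0 < p1)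
    (h2 : 0 < p2) (hsum : 1 / p0 + 1 / p1 + 1 / p2 = 1) :
    normP p0 (Fex N) * normP p1 (Fex N) * normP p2 (Fex N) = ((N : ℝ)) ^ 2 := by
  rw [normP_Fex N p0 h0, normP_Fex N p1 h1, normP_Fex N p2 h2]
  have hpos : (0 : ℝ) < ((N : ℝ)) ^ 2 := by positivity
  rw [← Real.rpow_add hpos, ← Real.rpow_add hpos, hsum, Real.rpow_one]

/-- the alternating coefficients on the scales `1, ..., 2n`, zero on all other scales -/
noncomputable def epscut (n : ℕ) (k : ℤ) : ℝ :=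
  if k ∈ Finset.Icc (1 : ℤ) (2 * (n : ℤ)) then epsex k else 0

theorem epscut_abs (n : ℕ) (k : ℤ) : |epscut n k| ≤ 1 := by
  unfold epscut
  split_ifs
  · exact epsex_abs k
  · simp

theorem form_epscut (n : ℕ) (S : Finset ℤ) (hS : Finset.Icc (1 : ℤ) (2 * (n : ℤ)) ⊆ S)
    (F0 F1 F2 : ℝ → ℝ → ℝ) :
    dyadicForm S (epscut n) F0 F1 F2
      = dyadicForm (Finset.Icc (1 : ℤ) (2 * (n : ℤ))) epsex F0 F1 F2 := by
  unfold dyadicForm
  rw [← Finset.sum_subset hS]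
  · apply Finset.sum_congr rfl
    intro k hk
    unfold epscut
    rw [if_pos hk]
  · intro k _ hk
    unfold epscut
    rw [if_neg hk, zero_mul]

/-- On the whole Hoelder line: any constant valid for a finite set of scales containing
`1, ..., 2n` is at least `3 (1 - 2^(-n))`. -/
theorem holder_scales_bound (p0 p1 p2 : ℝ) (h0 : 0 < p0) (h1 : 0 < p1) (h2 : 0 < p2)
    (hsum : 1 / p0 + 1 / p1 + 1 / p2 = 1) (n : ℕ) (S : Finset ℤ)
    (hS : Finset.Icc (1 : ℤ) (2 * (n : ℤ)) ⊆ S) (C : ℝ)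
    (h : ∀ (ε : ℤ → ℝ) (F0 F1 F2 : ℝ → ℝ → ℝ), (∀ k, |ε k| ≤ 1) →
      Admissible F0 → Admissible F1 → Admissible F2 →
      |dyadicForm S ε F0 F1 F2| ≤ C * (normP p0 F0 * normP p1 F1 * normP p2 F2)) :
    3 * (1 - ((1 : ℝ) / 2) ^ n) ≤ C := by
  have hN := h (epscut n) (Fex (2 ^ (2 * n))) (Fex (2 ^ (2 * n))) (Fex (2 ^ (2 * n)))
    (epscut_abs n) (admissible_Fex _) (admissible_Fex _) (admissible_Fex _)
  rw [form_epscut n S hS, form_ex,
    normP_prod_Fex (2 ^ (2 * n)) (by positivity) p0 p1 p2 h0 h1 h2 hsum] at hN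
  have hpos : (0 : ℝ) < (((2 ^ (2 * n) : ℕ) : ℝ)) ^ 2 := by positivity
  have h3 := le_trans (le_abs_self _) hN
  exact le_of_mul_le_mul_right h3 hpos

/-- On the whole Hoelder line: any constant valid for all finite sets of scales is at least 3. -/
theorem holder_const_ge_three (p0 p1 p2 : ℝ) (h0 : 0 < p0) (h1 : 0 < p1) (h2 : 0 < p2)
    (hsum : 1 / p0 + 1 / p1 + 1 / p2 = 1) (C : ℝ)
    (h : ∀ (S : Finset ℤ) (ε : ℤ → ℝ) (F0 F1 F2 : ℝ → ℝ → ℝ), (∀ k, |ε k| ≤ 1) →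
      Admissible F0 → Admissible F1 → Admissible F2 →
      |dyadicForm S ε F0 F1 F2| ≤ C * (normP p0 F0 * normP p1 F1 * normP p2 F2)) :
    3 ≤ C := by
  by_contra hC
  rw [not_le] at hC
  have hε : (0 : ℝ) < (3 - C) / 3 := by linarith
  obtain ⟨n, hn⟩ := exists_pow_lt_of_lt_one hε (by norm_num : ((1 : ℝ) / 2) < 1)
  have := holder_scales_bound p0 p1 p2 h0 h1 h2 hsum n _ (Finset.Subset.refl _) C
    (fun ε F0 F1 F2 => h _ ε F0 F1 F2)
  linarith

end Vale.Agent.Lib.P075
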