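import Mathlib
import Vale.Agent.Lib.P075.Defs
import Vale.Agent.Lib.P075.Main
import Vale.Agent.Lib.P075.NormP
import Vale.Agent.Lib.P075.HolderLine

/-!
P075, dyadic triangular Hilbert form: dyadic dilation.  Replacing `F(x, y)` by
`F(x / 2^a, y / 2^a)` moves every scale `k` to `k + a`, multiplies each form `L_I` by `4^a` and
each `L^p` norm by `4^(a/p)`; so the lower bound of `HolderLine.lean` holds for every block of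
`2n` consecutive scales.
-/

namespace Vale.Agent.Lib.P075

open MeasureTheory Finset

/-- dilation of a function of two variables: the function sending `x`, `y` to
`F (c x) (c y)` -/
def dil (c : ℝ) (F : ℝ → ℝ → ℝ) : ℝ → ℝ → ℝ := fun x y => F (c * x) (c * y)

theorem haar_dil (k a : ℤ) (n : ℕ) (x : ℝ) :
    haar (k + a) n x = haar k n (((2 : ℝ) ^ a)⁻¹ * x) := by
  have hA : (0 : ℝ) < (2 : ℝ) ^ a := by positivity
  have e : (2 : ℝ) ^ (k + a) = (2 : ℝ) ^ a * (2 : ℝ) ^ k := by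
    rw [zpow_add₀ (by norm_num : (2 : ℝ) ≠ 0)]; ring
  have h1 : ∀ t : ℝ, ((2 : ℝ) ^ (k + a) * t ≤ x ↔ (2 : ℝ) ^ k * t ≤ ((2 : ℝ) ^ a)⁻¹ * x) := by
    intro t
    rw [le_inv_mul_iff₀ hA, e, mul_assoc]
  have h2 : ∀ t : ℝ, (x < (2 : ℝ) ^ (k + a) * t ↔ ((2 : ℝ) ^ a)⁻¹ * x < (2 : ℝ) ^ k * t) := by
    intro t
    rw [inv_mul_lt_iff₀ hA, e, mul_assoc]
  unfold haar
  simp only [h1, h2]

theorem triple_dil (G : ℝ → ℝ → ℝ → ℝ) (c : ℝ) :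
    ∫ x0 : ℝ, ∫ x1 : ℝ, ∫ x2 : ℝ, G (c * x0) (c * x1) (c * x2)
      = |c⁻¹| * (|c⁻¹| * (|c⁻¹| * ∫ x0 : ℝ, ∫ x1 : ℝ, ∫ x2 : ℝ, G x0 x1 x2)) := by
  have h2 : ∀ u0 u1 : ℝ, ∫ x2 : ℝ, G u0 u1 (c * x2) = |c⁻¹| * ∫ x2 : ℝ, G u0 u1 x2 := by
    intro u0 u1
    have := Measure.integral_comp_mul_left (fun y => G u0 u1 y) c
    simpa [smul_eq_mul] using this
  have h1 : ∀ u0 : ℝ, ∫ x1 : ℝ, ∫ x2 : ℝ, G u0 (c * x1) (c * x2)
      = |c⁻¹| * (|c⁻¹| * ∫ x1 : ℝ, ∫ x2 : ℝ, G u0 x1 x2) := by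
    intro u0
    simp_rw [h2]
    rw [integral_const_mul]
    have := Measure.integral_comp_mul_left (fun y => ∫ x2 : ℝ, G u0 y x2) c
    rw [show (∫ x1 : ℝ, ∫ x2 : ℝ, G u0 (c * x1) x2)
        = |c⁻¹| * ∫ x1 : ℝ, ∫ x2 : ℝ, G u0 x1 x2 by simpa [smul_eq_mul] using this]
  simp_rw [h1]
  rw [integral_const_mul, integral_const_mul]
  have := Measure.integral_comp_mul_left (fun y => ∫ x1 : ℝ, ∫ x2 : ℝ, G y x1 x2) c
  rw [show (∫ x0 : ℝ, ∫ x1 : ℝ, ∫ x2 : ℝ, G (c * x0) x1 x2)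
      = |c⁻¹| * ∫ x0 : ℝ, ∫ x1 : ℝ, ∫ x2 : ℝ, G x0 x1 x2 by simpa [smul_eq_mul] using this]

theorem Lterm_dil (k a : ℤ) (n0 n1 n2 : ℕ) (F0 F1 F2 : ℝ → ℝ → ℝ) :
    Lterm (k + a) n0 n1 n2 (dil ((2 : ℝ) ^ a)⁻¹ F0) (dil ((2 : ℝ) ^ a)⁻¹ F1)
        (dil ((2 : ℝ) ^ a)⁻¹ F2)
      = ((2 : ℝ) ^ a) ^ 2 * Lterm k n0 n1 n2 F0 F1 F2 := by
  have hA : (0 : ℝ) < (2 : ℝ) ^ a := by positivity
  unfold Lterm dil
  simp_rw [haar_dil k a]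
  rw [triple_dil (fun u0 u1 u2 => F0 u0 u1 * F1 u1 u2 * F2 u2 u0 *
    (haar k n0 u0 * haar k n1 u1 * haar k n2 u2)) ((2 : ℝ) ^ a)⁻¹]
  rw [inv_inv, abs_of_pos hA]
  have e : (2 : ℝ) ^ (-(k + a)) = (2 : ℝ) ^ (-k) * ((2 : ℝ) ^ a)⁻¹ := by
    rw [neg_add, zpow_add₀ (by norm_num : (2 : ℝ) ≠ 0), zpow_neg, zpow_neg]
  rw [e]
  field_simp

theorem tsum_Lterm_dil (k a : ℤ) (F0 F1 F2 : ℝ → ℝ → ℝ) :
    ∑' p : ℕ × ℕ, Lterm (k + a) p.1 p.2 (p.1 ^^^ p.2) (dil ((2 : ℝ) ^ a)⁻¹ F0)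
        (dil ((2 : ℝ) ^ a)⁻¹ F1) (dil ((2 : ℝ) ^ a)⁻¹ F2)
      = ((2 : ℝ) ^ a) ^ 2 * ∑' p : ℕ × ℕ, Lterm k p.1 p.2 (p.1 ^^^ p.2) F0 F1 F2 := by
  simp_rw [Lterm_dil]
  rw [tsum_mul_left]

/-- the alternating coefficients on the scales `a+1, ..., a+2n`, zero on all other scales -/
noncomputable def epsshift (a : ℤ) (n : ℕ) (k : ℤ) : ℝ :=
  if k ∈ Finset.Icc (a + 1) (a + 2 * (n : ℤ)) then epsex (k - a) else 0

theorem epsshift_abs (a : ℤ) (n : ℕ) (k : ℤ) : |epsshift a n k| ≤ 1 := by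
  unfold epsshift
  split_ifs
  · exact epsex_abs _
  · simp

theorem Icc_shift (a : ℤ) (n : ℕ) :
    Finset.Icc (a + 1) (a + 2 * (n : ℤ))
      = (Finset.Icc (1 : ℤ) (2 * (n : ℤ))).image (fun j : ℤ => j + a) := by
  ext k
  simp only [Finset.mem_Icc, Finset.mem_image]
  constructor
  · rintro ⟨h1, h2⟩
    exact ⟨k - a, ⟨by omega, by omega⟩, by omega⟩
  · rintro ⟨j, ⟨h1, h2⟩, rfl⟩
    constructor <;> omega

theorem form_shift (a : ℤ) (n : ℕ) (S : Finset ℤ)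
    (hS : Finset.Icc (a + 1) (a + 2 * (n : ℤ)) ⊆ S) (F0 F1 F2 : ℝ → ℝ → ℝ) :
    dyadicForm S (epsshift a n) (dil ((2 : ℝ) ^ a)⁻¹ F0) (dil ((2 : ℝ) ^ a)⁻¹ F1)
        (dil ((2 : ℝ) ^ a)⁻¹ F2)
      = ((2 : ℝ) ^ a) ^ 2 * dyadicForm (Finset.Icc (1 : ℤ) (2 * (n : ℤ))) epsex F0 F1 F2 := by
  unfold dyadicForm
  rw [← Finset.sum_subset hS]
  · rw [Icc_shift, Finset.sum_image (fun x _ y _ hxy => by simpa using hxy), Finset.mul_sum]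
    apply Finset.sum_congr rfl
    intro j hj
    have hmem : j + a ∈ Finset.Icc (a + 1) (a + 2 * (n : ℤ)) := by
      rw [Finset.mem_Icc] at hj ⊢
      constructor <;> omega
    have he : epsshift a n (j + a) = epsex j := by
      unfold epsshift
      rw [if_pos hmem]
      congr 1
      ring
    rw [he, tsum_Lterm_dil]
    ring
  · intro k _ hk
    unfold epsshift
    rw [if_neg hk, zero_mul]

theorem integral_Fex_cube_full (N : ℕ) :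
    ∫ x : ℝ, ∫ y : ℝ, |Fex N x y| ^ 3 = ((N : ℝ)) ^ 2 := by
  unfold Fex
  have hΨ : ∀ a b : ℤ, ¬((0 ≤ a ∧ a < N) ∧ (0 ≤ b ∧ b < N)) →
      (fun a b : ℤ => |((Gz N a b : ℤ) : ℝ)| ^ 3) a b = 0 := by
    intro a b h
    simp only
    by_cases ha : 0 ≤ a ∧ a < N
    · have hb : ¬ (0 ≤ b ∧ b < N) := fun hb => h ⟨ha, hb⟩
      rw [Gz_eq_zero_right N a b hb]; simp
    · rw [Gz_eq_zero_left N a b ha]; simp
  rw [floor_int2 _ N hΨ]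
  have h2 : ∀ a ∈ range N, ∀ b ∈ range N, |((Gz N (a : ℤ) (b : ℤ) : ℤ) : ℝ)| ^ 3 = 1 := by
    intro a ha b hb
    rw [Finset.mem_range] at ha hb
    rw [Gz_natCast N a b ha hb]
    rcases Gfun_pm a b with h | h <;> rw [h] <;> simp
  rw [Finset.sum_congr rfl (fun a ha => Finset.sum_congr rfl (fun b hb => h2 a ha b hb))]
  simp only [Finset.sum_const, Finset.card_range, nsmul_eq_mul]
  ring

theorem integral_dil_Fex_cube (N : ℕ) (c : ℝ) (hc : 0 < c) :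
    ∫ x in Set.Ici (0 : ℝ), ∫ y in Set.Ici (0 : ℝ), |Fex N (c * x) (c * y)| ^ 3
      = c⁻¹ * (c⁻¹ * ((N : ℝ)) ^ 2) := by
  have hci : |c⁻¹| = c⁻¹ := abs_of_pos (inv_pos.mpr hc)
  have h1 : ∀ x : ℝ, ∫ y in Set.Ici (0 : ℝ), |Fex N (c * x) (c * y)| ^ 3
      = c⁻¹ * ∫ y : ℝ, |Fex N (c * x) y| ^ 3 := by
    intro x
    rw [setIntegral_eq_integral_of_forall_compl_eq_zero]
    · have := Measure.integral_comp_mul_left (fun y => |Fex N (c * x) y| ^ 3) c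
      rw [hci] at this
      simpa [smul_eq_mul] using this
    · intro y hy
      rw [Set.mem_Ici, not_le] at hy
      rw [Fex_eq_zero_right N (c * x) (c * y) (mul_neg_of_pos_of_neg hc hy)]; simp
  simp_rw [h1]
  rw [integral_const_mul, setIntegral_eq_integral_of_forall_compl_eq_zero]
  · have := Measure.integral_comp_mul_left (fun u => ∫ y : ℝ, |Fex N u y| ^ 3) c
    rw [hci] at this
    rw [show (∫ x : ℝ, ∫ y : ℝ, |Fex N (c * x) y| ^ 3)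
        = c⁻¹ * ∫ x : ℝ, ∫ y : ℝ, |Fex N x y| ^ 3 by simpa [smul_eq_mul] using this]
    rw [integral_Fex_cube_full]
  · intro x hx
    rw [Set.mem_Ici, not_le] at hx
    have : ∀ y : ℝ, |Fex N (c * x) y| ^ 3 = 0 := by
      intro y
      rw [Fex_eq_zero_left N (c * x) y (mul_neg_of_pos_of_neg hc hx)]; simp
    simp_rw [this]
    simp

theorem normP_dil_Fex (N : ℕ) (a : ℤ) (p : ℝ) (hp : 0 < p) :
    normP p (dil ((2 : ℝ) ^ a)⁻¹ (Fex N))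
      = (((2 : ℝ) ^ a) ^ 2 * ((N : ℝ)) ^ 2) ^ ((1 : ℝ) / p) := by
  have hA : (0 : ℝ) < (2 : ℝ) ^ a := by positivity
  unfold normP dil
  have e : ∀ x y : ℝ, |Fex N (((2 : ℝ) ^ a)⁻¹ * x) (((2 : ℝ) ^ a)⁻¹ * y)| ^ p
      = |Fex N (((2 : ℝ) ^ a)⁻¹ * x) (((2 : ℝ) ^ a)⁻¹ * y)| ^ 3 :=
    fun x y => Gz_abs_rpow N _ _ p hp
  simp_rw [e]
  rw [integral_dil_Fex_cube N _ (inv_pos.mpr hA), inv_inv]
  congr 1
  ring

theorem normP_prod_dil_Fex (N : ℕ) (hN : 0 < N) (a : ℤ) (p0 p1 p2 : ℝ) (h0 : 0 < p0)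
    (h1 : 0 < p1) (h2 : 0 < p2) (hsum : 1 / p0 + 1 / p1 + 1 / p2 = 1) :
    normP p0 (dil ((2 : ℝ) ^ a)⁻¹ (Fex N)) * normP p1 (dil ((2 : ℝ) ^ a)⁻¹ (Fex N))
        * normP p2 (dil ((2 : ℝ) ^ a)⁻¹ (Fex N))
      = ((2 : ℝ) ^ a) ^ 2 * ((N : ℝ)) ^ 2 := by
  rw [normP_dil_Fex N a p0 h0, normP_dil_Fex N a p1 h1, normP_dil_Fex N a p2 h2]
  have hpos : (0 : ℝ) < ((2 : ℝ) ^ a) ^ 2 * ((N : ℝ)) ^ 2 := by positivity
  rw [← Real.rpow_add hpos, ← Real.rpow_add hpos, hsum, Real.rpow_one]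

theorem admissible_dil (c : ℝ) (hc : 0 < c) (F : ℝ → ℝ → ℝ) (h : Admissible F) :
    Admissible (dil c F) := by
  obtain ⟨hm, ⟨M, hM⟩, ⟨R, hR⟩⟩ := h
  refine ⟨?_, ⟨M, fun x y => hM _ _⟩, ⟨R / c, ?_⟩⟩
  · have hcomp : Function.uncurry (dil c F)
        = Function.uncurry F ∘ (fun q : ℝ × ℝ => (c * q.1, c * q.2)) := by
      funext q
      rfl
    rw [hcomp]
    exact hm.comp ((measurable_const.mul measurable_fst).prodMk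
      (measurable_const.mul measurable_snd))
  · intro x y hxy
    obtain ⟨h1, h2, h3, h4⟩ := hR (c * x) (c * y) hxy
    refine ⟨(mul_nonneg_iff_of_pos_left hc).mp h1, ?_, (mul_nonneg_iff_of_pos_left hc).mp h3, ?_⟩
    · rw [le_div_iff₀ hc]; linarith
    · rw [le_div_iff₀ hc]; linarith

/-- On the whole Hoelder line: any constant valid for a finite set of scales containing the
`2n` consecutive scales `a+1, ..., a+2n` is at least `3 (1 - 2^(-n))`. -/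
theorem shift_scales_bound (p0 p1 p2 : ℝ) (h0 : 0 < p0) (h1 : 0 < p1) (h2 : 0 < p2)
    (hsum : 1 / p0 + 1 / p1 + 1 / p2 = 1) (a : ℤ) (n : ℕ) (S : Finset ℤ)
    (hS : Finset.Icc (a + 1) (a + 2 * (n : ℤ)) ⊆ S) (C : ℝ)
    (h : ∀ (ε : ℤ → ℝ) (F0 F1 F2 : ℝ → ℝ → ℝ), (∀ k, |ε k| ≤ 1) →
      Admissible F0 → Admissible F1 → Admissible F2 →
      |dyadicForm S ε F0 F1 F2| ≤ C * (normP p0 F0 * normP p1 F1 * normP p2 F2)) :
    3 * (1 - ((1 : ℝ) / 2) ^ n) ≤ C := by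
  have hA : (0 : ℝ) < (2 : ℝ) ^ a := by positivity
  have hW : Admissible (dil ((2 : ℝ) ^ a)⁻¹ (Fex (2 ^ (2 * n)))) :=
    admissible_dil _ (inv_pos.mpr hA) _ (admissible_Fex _)
  have hN := h (epsshift a n) _ _ _ (epsshift_abs a n) hW hW hW
  rw [form_shift a n S hS, form_ex,
    normP_prod_dil_Fex (2 ^ (2 * n)) (by positivity) a p0 p1 p2 h0 h1 h2 hsum] at hN
  have hpos : (0 : ℝ) < ((2 : ℝ) ^ a) ^ 2 * (((2 ^ (2 * n) : ℕ) : ℝ)) ^ 2 := by positivity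
  have h3 := le_trans (le_abs_self _) hN
  have h4 : 3 * (1 - ((1 : ℝ) / 2) ^ n) * (((2 : ℝ) ^ a) ^ 2 * (((2 ^ (2 * n) : ℕ) : ℝ)) ^ 2)
      ≤ C * (((2 : ℝ) ^ a) ^ 2 * (((2 ^ (2 * n) : ℕ) : ℝ)) ^ 2) := by
    calc 3 * (1 - ((1 : ℝ) / 2) ^ n) * (((2 : ℝ) ^ a) ^ 2 * (((2 ^ (2 * n) : ℕ) : ℝ)) ^ 2)
        = ((2 : ℝ) ^ a) ^ 2 * (3 * (1 - ((1 : ℝ) / 2) ^ n) * (((2 ^ (2 * n) : ℕ) : ℝ)) ^ 2) := by
          ring
      _ ≤ _ := h3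
  exact le_of_mul_le_mul_right h4 hpos

end Vale.Agent.Lib.P075
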