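import Mathlib
import Vale.Agent.Lib.P075.Defs
import Vale.Agent.Lib.P075.Main
import Vale.Agent.Lib.P075.NormP
import Vale.Agent.Lib.P075.HolderLine
import Vale.Agent.Lib.P075.Dilate

/-!
P075, dyadic triangular Hilbert form: the lower bound given by the example functions for an
arbitrary finite set `S` of scales.  Counted from an integer `a`, the scale `k > a` contributes
`2^(-⌊(k - a) / 2⌋)`: the weights are `1, 1/2, 1/2, 1/4, 1/4, ...` for `k = a+1, a+2, ...`.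
-/

namespace Vale.Agent.Lib.P075

open MeasureTheory Finset

theorem scale_term (j : ℕ) :
    epsex ((j : ℤ) + 1) * ((2 : ℝ) ^ (-((j : ℤ) + 1)) * ((2 * Ssum j - Ssum (j + 1) : ℤ) : ℝ))
      = ((1 : ℝ) / 2) ^ ((j + 1) / 2) := by
  rcases Nat.even_or_odd' j with ⟨i, rfl | rfl⟩
  · have he1 : epsex (((2 * i : ℕ) : ℤ) + 1) = 1 := by
      unfold epsex
      rw [if_neg]
      push_cast; omega
    have hd : (2 * i + 1) / 2 = i := by omega
    rw [he1, zpow_neg_succ, Ssum_even, Ssum_odd, hd]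
    have h : ((1 : ℝ) / 2) ^ i * 2 ^ i = 1 := by
      rw [← mul_pow]; norm_num
    have e1 : ((1 : ℝ) / 2) ^ (2 * i + 1) = ((1 : ℝ) / 2) ^ i * ((1 : ℝ) / 2) ^ i * (1 / 2) := by
      rw [show 2 * i + 1 = i + i + 1 by ring, pow_succ, pow_add]
    rw [e1]
    push_cast
    linear_combination (((1 : ℝ) / 2) ^ i) * h
  · have he2 : epsex (((2 * i + 1 : ℕ) : ℤ) + 1) = -1 := by
      unfold epsex
      rw [if_pos]
      push_cast; omega
    have hd : (2 * i + 1 + 1) / 2 = i + 1 := by omega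
    have hS1 : Ssum (2 * i + 1 + 1) = 2 ^ (i + 1) := by
      have : 2 * i + 1 + 1 = 2 * (i + 1) := by ring
      rw [this, Ssum_even]
    rw [he2, zpow_neg_succ, Ssum_odd, hS1, hd]
    have h : ((1 : ℝ) / 2) ^ (i + 1) * 2 ^ (i + 1) = 1 := by
      rw [← mul_pow]; norm_num
    have e1 : ((1 : ℝ) / 2) ^ (2 * i + 1 + 1)
        = ((1 : ℝ) / 2) ^ (i + 1) * ((1 : ℝ) / 2) ^ (i + 1) := by
      rw [show 2 * i + 1 + 1 = (i + 1) + (i + 1) by ring, pow_add]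
    rw [e1]
    push_cast
    linear_combination (((1 : ℝ) / 2) ^ (i + 1)) * h

/-- the alternating coefficients on the scales `a+1, ..., a+2M`, zero on all other scales -/
noncomputable def epsgen (a : ℤ) (M : ℕ) (k : ℤ) : ℝ :=
  if a < k ∧ k ≤ a + 2 * (M : ℤ) then epsex (k - a) else 0

theorem epsgen_abs (a : ℤ) (M : ℕ) (k : ℤ) : |epsgen a M k| ≤ 1 := by
  unfold epsgen
  split_ifs
  · exact epsex_abs _
  · simp

theorem form_general (a : ℤ) (M : ℕ) (S : Finset ℤ) (hS : ∀ k ∈ S, k ≤ a + 2 * (M : ℤ)) :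
    dyadicForm S (epsgen a M) (dil ((2 : ℝ) ^ a)⁻¹ (Fex (2 ^ (2 * M))))
        (dil ((2 : ℝ) ^ a)⁻¹ (Fex (2 ^ (2 * M)))) (dil ((2 : ℝ) ^ a)⁻¹ (Fex (2 ^ (2 * M))))
      = ((2 : ℝ) ^ a) ^ 2 * ((2 : ℝ) ^ (2 * M)) ^ 2 *
        ∑ k ∈ S.filter (fun k => a < k), ((1 : ℝ) / 2) ^ ((k - a).toNat / 2) := by
  unfold dyadicForm
  rw [Finset.mul_sum, Finset.sum_filter]
  apply Finset.sum_congr rfl
  intro k hk
  by_cases hak : a < k
  · rw [if_pos hak]
    have hk2 := hS k hk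
    obtain ⟨j, hj⟩ : ∃ j : ℕ, k = ((j : ℤ) + 1) + a := ⟨(k - a - 1).toNat, by omega⟩
    subst hj
    have hjM : j + 1 ≤ 2 * M := by omega
    have he : epsgen a M ((j : ℤ) + 1 + a) = epsex ((j : ℤ) + 1) := by
      unfold epsgen
      rw [if_pos ⟨hak, hk2⟩]
      congr 1
      ring
    have ht : ((j : ℤ) + 1 + a - a).toNat = j + 1 := by omega
    rw [he, tsum_Lterm_dil ((j : ℤ) + 1) a, tsum_Lterm_ex M j hjM, ht, ← scale_term j]
    ring
  · rw [if_neg hak]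
    unfold epsgen
    rw [if_neg (fun h => hak h.1), zero_mul]

/-- On the whole Hoelder line, for an arbitrary finite set `S` of scales and an arbitrary
integer `a`: any constant valid for `S` is at least the sum over the scales `k > a` of `S` of
`2^(-⌊(k - a) / 2⌋)`. -/
theorem general_scales_bound (p0 p1 p2 : ℝ) (h0 : 0 < p0) (h1 : 0 < p1) (h2 : 0 < p2)
    (hsum : 1 / p0 + 1 / p1 + 1 / p2 = 1) (a : ℤ) (S : Finset ℤ) (C : ℝ)
    (h : ∀ (ε : ℤ → ℝ) (F0 F1 F2 : ℝ → ℝ → ℝ), (∀ k, |ε k| ≤ 1) →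
      Admissible F0 → Admissible F1 → Admissible F2 →
      |dyadicForm S ε F0 F1 F2| ≤ C * (normP p0 F0 * normP p1 F1 * normP p2 F2)) :
    ∑ k ∈ S.filter (fun k => a < k), ((1 : ℝ) / 2) ^ ((k - a).toNat / 2) ≤ C := by
  have hA : (0 : ℝ) < (2 : ℝ) ^ a := by positivity
  set M : ℕ := S.sup (fun k => (k - a).toNat) with hM
  have hS : ∀ k ∈ S, k ≤ a + 2 * (M : ℤ) := by
    intro k hk
    have hle : (k - a).toNat ≤ M := Finset.le_sup (f := fun k => (k - a).toNat) hk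
    omega
  have hW : Admissible (dil ((2 : ℝ) ^ a)⁻¹ (Fex (2 ^ (2 * M)))) :=
    admissible_dil _ (inv_pos.mpr hA) _ (admissible_Fex _)
  have hN := h (epsgen a M) _ _ _ (epsgen_abs a M) hW hW hW
  have hcast : (((2 ^ (2 * M) : ℕ) : ℝ)) = (2 : ℝ) ^ (2 * M) := by push_cast; rfl
  rw [form_general a M S hS,
    normP_prod_dil_Fex (2 ^ (2 * M)) (by positivity) a p0 p1 p2 h0 h1 h2 hsum, hcast] at hN
  have hpos : (0 : ℝ) < ((2 : ℝ) ^ a) ^ 2 * ((2 : ℝ) ^ (2 * M)) ^ 2 := by positivity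
  have h3 := le_trans (le_abs_self _) hN
  have h4 : (∑ k ∈ S.filter (fun k => a < k), ((1 : ℝ) / 2) ^ ((k - a).toNat / 2))
      * (((2 : ℝ) ^ a) ^ 2 * ((2 : ℝ) ^ (2 * M)) ^ 2)
      ≤ C * (((2 : ℝ) ^ a) ^ 2 * ((2 : ℝ) ^ (2 * M)) ^ 2) := by
    calc (∑ k ∈ S.filter (fun k => a < k), ((1 : ℝ) / 2) ^ ((k - a).toNat / 2))
          * (((2 : ℝ) ^ a) ^ 2 * ((2 : ℝ) ^ (2 * M)) ^ 2)
        = ((2 : ℝ) ^ a) ^ 2 * ((2 : ℝ) ^ (2 * M)) ^ 2 *
          ∑ k ∈ S.filter (fun k => a < k), ((1 : ℝ) / 2) ^ ((k - a).toNat / 2) := by ring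
      _ ≤ _ := h3
  exact le_of_mul_le_mul_right h4 hpos

theorem Icc_block (a : ℤ) (m : ℕ) :
    Finset.Icc (a + 1) (a + (m : ℤ))
      = (Finset.range m).image (fun j : ℕ => (j : ℤ) + 1 + a) := by
  ext k
  simp only [Finset.mem_Icc, Finset.mem_image, Finset.mem_range]
  constructor
  · rintro ⟨h1, h2⟩
    exact ⟨(k - a - 1).toNat, by omega, by omega⟩
  · rintro ⟨j, hj, rfl⟩
    constructor <;> omega

theorem block_sum (a : ℤ) (m : ℕ) :
    ∑ k ∈ Finset.Icc (a + 1) (a + (m : ℤ)), ((1 : ℝ) / 2) ^ ((k - a).toNat / 2)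
      = ∑ j ∈ Finset.range m, ((1 : ℝ) / 2) ^ ((j + 1) / 2) := by
  rw [Icc_block, Finset.sum_image (fun x _ y _ hxy => by simpa using hxy)]
  apply Finset.sum_congr rfl
  intro j _
  have ht : ((j : ℤ) + 1 + a - a).toNat = j + 1 := by omega
  rw [ht]

theorem weights_odd (n : ℕ) :
    ∑ j ∈ Finset.range (2 * n + 1), ((1 : ℝ) / 2) ^ ((j + 1) / 2)
      = 3 - 2 * ((1 : ℝ) / 2) ^ n := by
  induction n with
  | zero => norm_num
  | succ n ih =>
    have e : 2 * (n + 1) + 1 = 2 * n + 1 + 1 + 1 := by ring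
    have d1 : (2 * n + 1 + 1) / 2 = n + 1 := by omega
    have d2 : (2 * n + 1 + 1 + 1) / 2 = n + 1 := by omega
    rw [e, Finset.sum_range_succ, Finset.sum_range_succ, ih, d1, d2]
    have e3 : ((1 : ℝ) / 2) ^ (n + 1) = ((1 : ℝ) / 2) ^ n * (1 / 2) := by rw [pow_succ]
    rw [e3]
    ring

/-- On the whole Hoelder line: any constant valid for a finite set of scales containing the
`2n+1` consecutive scales `a+1, ..., a+2n+1` is at least `3 - 2 * 2^(-n)`. -/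
theorem odd_scales_bound (p0 p1 p2 : ℝ) (h0 : 0 < p0) (h1 : 0 < p1) (h2 : 0 < p2)
    (hsum : 1 / p0 + 1 / p1 + 1 / p2 = 1) (a : ℤ) (n : ℕ) (S : Finset ℤ)
    (hS : Finset.Icc (a + 1) (a + 2 * (n : ℤ) + 1) ⊆ S) (C : ℝ)
    (h : ∀ (ε : ℤ → ℝ) (F0 F1 F2 : ℝ → ℝ → ℝ), (∀ k, |ε k| ≤ 1) →
      Admissible F0 → Admissible F1 → Admissible F2 →
      |dyadicForm S ε F0 F1 F2| ≤ C * (normP p0 F0 * normP p1 F1 * normP p2 F2)) :
    3 - 2 * ((1 : ℝ) / 2) ^ n ≤ C := by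
  have hg := general_scales_bound p0 p1 p2 h0 h1 h2 hsum a S C h
  have hI : Finset.Icc (a + 1) (a + 2 * (n : ℤ) + 1)
      = Finset.Icc (a + 1) (a + ((2 * n + 1 : ℕ) : ℤ)) := by
    congr 1
    push_cast
    ring
  have hsub : Finset.Icc (a + 1) (a + ((2 * n + 1 : ℕ) : ℤ)) ⊆ S.filter (fun k => a < k) := by
    intro k hk
    rw [Finset.mem_filter]
    refine ⟨hS (hI ▸ hk), ?_⟩
    rw [Finset.mem_Icc] at hk
    omega
  have hle : ∑ k ∈ Finset.Icc (a + 1) (a + ((2 * n + 1 : ℕ) : ℤ)),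
      ((1 : ℝ) / 2) ^ ((k - a).toNat / 2)
      ≤ ∑ k ∈ S.filter (fun k => a < k), ((1 : ℝ) / 2) ^ ((k - a).toNat / 2) :=
    Finset.sum_le_sum_of_subset_of_nonneg hsub (fun k _ _ => by positivity)
  rw [block_sum, weights_odd] at hle
  linarith

end Vale.Agent.Lib.P075
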